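import Vale.Agent.P200H.Main5

/-! P200, partial answer to Q1 (Eisenbud-Green-Harris conjecture, all degrees 2): regular sequences of quadrics with at
most five irreducible members, in any number of variables, over any field. -/

namespace Vale.Agent.Results.P200.QuadricsFiveFree

open MvPolynomial Vale.Agent.P200E

/-- Let K be any field, c at most N, and f_1, ..., f_c a regular sequence of quadratic forms in K[x_1, ..., x_N], all but at
most five of which become products of two linear forms over some extension field L of K (L = K is allowed).  Then every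
homogeneous ideal I containing f_1, ..., f_c has the Hilbert function of a monomial ideal J containing x_1^2, ..., x_c^2. -/
theorem result {K : Type*} [Field K] (L : Type*) [Field L] [Algebra K L] (c N : ℕ) (hcN : c ≤ N)
    (f : Fin c → MvPolynomial (Fin N) K) (hf : ∀ i, (f i).IsHomogeneous 2) (hr : IsRegSeqG f)
    (s : Finset (Fin c)) (hs : s.card ≤ 5)
    (hsplit : ∀ i, i ∉ s → Splits2 (MvPolynomial.map (algebraMap K L) (f i)))
    (I : Ideal (MvPolynomial (Fin N) K)) (hI : IsHomog I) (hfI : ∀ i, f i ∈ I) :
    ∃ J : Ideal (MvPolynomial (Fin N) K), IsMonomialIdeal J ∧ (∀ i : Fin c, X (Fin.castLE hcN i) ^ 2 ∈ J) ∧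
      ∀ d, HF J d = HF I d :=
  final_five L c N hcN f hf hr s hs hsplit I hI hfI

end Vale.Agent.Results.P200.QuadricsFiveFree
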